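import Vale.Agent.P315.Logic
import Vale.Agent.Lib.PolyTime.TM2

/-! Compilation of stack programs (`Lib.PolyTime.Prog`, no oracle) to the word RAM of P315:
stack `i` is kept in array `a + i`, its height in register `β + i`; while loops become for loops
whose number of rounds is the content of a clock register `κ`. -/

set_option autoImplicit false

namespace Vale.Agent.P315.R

open Vale.Agent.Lib.PolyTime (Word)

/-- Stack programs. -/
abbrev SProg := Vale.Agent.Lib.PolyTime.Prog
/-- Runs of stack programs. -/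
abbrev SEval := Vale.Agent.Lib.PolyTime.Eval ∅

/-- Do nothing (register `ι` is scratch). -/
def nop (ι : ℕ) : Prog := .set ι (.lit 0)

/-- The compiled program. -/
def comp (β a κ ι : ℕ) : SProg → Prog
  | .skip => nop ι
  | .push i b => .seq (.put (a + i) (.reg (β + i)) (.lit b.toNat))
      (.set (β + i) (.op .add (.reg (β + i)) (.lit 1)))
  | .pop i => .set (β + i) (.op .sub (.reg (β + i)) (.lit 1))
  | .query _ j => .seq (.put (a + j) (.reg (β + j)) (.lit 0))
      (.set (β + j) (.op .add (.reg (β + j)) (.lit 1)))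
  | .seq p q => .seq (comp β a κ ι p) (comp β a κ ι q)
  | .ite i p q r => .ite (.reg (β + i))
      (.ite (.get (a + i) (.op .sub (.reg (β + i)) (.lit 1))) (comp β a κ ι r) (comp β a κ ι q))
      (comp β a κ ι p)
  | .loop i p => .loop ι (.reg κ) (.ite (.reg (β + i)) (comp β a κ ι p) (nop ι))

/-! ### Syntactic time bound -/

/-- Bound for the time of the compiled program if the clock shows `T`. -/
def tb (T : ℕ) : SProg → ℕ
  | .skip => 2
  | .push _ _ => 7
  | .pop _ => 4
  | .query _ _ => 7
  | .seq p q => tb T p + tb T q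
  | .ite _ p q r => 7 + tb T p + tb T q + tb T r
  | .loop _ p => 2 + T * (tb T p + 6)

/-- exponent of the polynomial bound -/
def tbe : SProg → ℕ
  | .skip => 1
  | .push _ _ => 3
  | .pop _ => 2
  | .query _ _ => 3
  | .seq p q => max (tbe p) (tbe q) + 1
  | .ite _ p q r => max (max (tbe p) (tbe q)) (max (tbe r) 3) + 2
  | .loop _ p => max (tbe p) 3 + 3

theorem tb_le (T : ℕ) (p : SProg) : tb T p ≤ (T + 2) ^ tbe p := by
  have h2 : ∀ k, 2 ^ k ≤ (T + 2) ^ k := fun k => Nat.pow_le_pow_left (by omega) k
  have hm : ∀ i j, i ≤ j → (T + 2) ^ i ≤ (T + 2) ^ j := fun i j h =>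
    Nat.pow_le_pow_right (by omega) h
  have hs : ∀ k, (T + 2) ^ (k + 1) = (T + 2) ^ k * (T + 2) := fun k => pow_succ _ _
  induction p with
  | skip => simp [tb, tbe]
  | push i b => have := h2 3; simp only [tb, tbe]; omega
  | pop i => have := h2 2; simp only [tb, tbe]; omega
  | query i j => have := h2 3; simp only [tb, tbe]; omega
  | seq p q ihp ihq =>
    simp only [tb, tbe]
    have h3 := hm _ _ (le_max_left (tbe p) (tbe q))
    have h4 := hm _ _ (le_max_right (tbe p) (tbe q))
    have h5 := hs (max (tbe p) (tbe q))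
    nlinarith [Nat.zero_le ((T + 2) ^ max (tbe p) (tbe q) * T)]
  | ite i p q r ihp ihq ihr =>
    simp only [tb, tbe]
    set m := max (max (tbe p) (tbe q)) (max (tbe r) 3) with hmdef
    have h3 := hm (tbe p) m (by omega)
    have h4 := hm (tbe q) m (by omega)
    have h5 := hm (tbe r) m (by omega)
    have h6 := hm 3 m (by omega)
    have h7 := h2 3
    have h8 := hs m
    have h9 := hs (m + 1)
    have h10 : (T + 2) ^ m * 2 ≤ (T + 2) ^ (m + 1) := by
      rw [h8]; exact Nat.mul_le_mul_left _ (by omega)
    have h11 : (T + 2) ^ (m + 1) * 2 ≤ (T + 2) ^ (m + 1 + 1) := by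
      rw [h9]; exact Nat.mul_le_mul_left _ (by omega)
    have h12 : m + 2 = m + 1 + 1 := rfl
    rw [h12]
    omega
  | loop i p ih =>
    simp only [tb, tbe]
    set m := max (tbe p) 3 with hmdef
    have h3 := hm (tbe p) m (by omega)
    have h6 := hm 3 m (by omega)
    have h7 := h2 3
    have h8 : tb T p + 6 ≤ (T + 2) ^ m * 2 := by omega
    have h9 : T * (tb T p + 6) ≤ (T + 2) * ((T + 2) ^ m * 2) := Nat.mul_le_mul (by omega) h8
    have h10 : (T + 2) ^ (m + 3) = (T + 2) ^ m * ((T + 2) * (T + 2) * (T + 2)) := by ring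
    have h11 : (T + 2) ^ m * ((T + 2) * 2 * 2) ≤ (T + 2) ^ m * ((T + 2) * (T + 2) * (T + 2)) := by
      apply Nat.mul_le_mul_left
      exact Nat.mul_le_mul (Nat.mul_le_mul_left _ (by omega)) (by omega)
    have h12 : (T + 2) ^ m * ((T + 2) * 2 * 2) = (T + 2) * ((T + 2) ^ m * 2) * 2 := by ring
    have h13 : 2 ≤ (T + 2) * ((T + 2) ^ m * 2) := by
      have : 1 ≤ (T + 2) ^ m := Nat.one_le_pow _ _ (by omega)
      nlinarith
    rw [h10]
    omega

/-! ### Frames -/

theorem comp_wr (β a κ ι N : ℕ) (p : SProg) (hp : Vale.Agent.Lib.PolyTime.ToTM2.bounded N p) :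
    ∀ k ∈ (comp β a κ ι p).wr, k = ι ∨ (β ≤ k ∧ k < β + N) := by
  induction p with
  | skip => intro k hk; simp [comp, nop, Prog.wr] at hk; exact Or.inl hk
  | push i b =>
    have hi : i < N := hp
    intro k hk; simp [comp, Prog.wr] at hk; omega
  | pop i =>
    have hi : i < N := hp
    intro k hk; simp [comp, Prog.wr] at hk; omega
  | query i j =>
    have hi : j < N := hp.2
    intro k hk; simp [comp, Prog.wr] at hk; omega
  | seq p q ihp ihq =>
    intro k hk
    simp only [comp, Prog.wr, List.mem_append] at hk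
    exact hk.elim (ihp hp.1 k) (ihq hp.2 k)
  | ite i p q r ihp ihq ihr =>
    intro k hk
    simp only [comp, Prog.wr, List.mem_append] at hk
    rcases hk with (hk | hk) | hk
    · exact ihr hp.2.2.2 k hk
    · exact ihq hp.2.2.1 k hk
    · exact ihp hp.2.1 k hk
  | loop i p ih =>
    intro k hk
    simp only [comp, nop, Prog.wr, List.mem_append, List.mem_cons, List.not_mem_nil, or_false] at hk
    rcases hk with hk | hk | hk
    · exact Or.inl hk
    · exact ih hp.2 k hk
    · exact Or.inl hk

theorem comp_wa (β a κ ι N : ℕ) (p : SProg) (hp : Vale.Agent.Lib.PolyTime.ToTM2.bounded N p) :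
    ∀ k ∈ (comp β a κ ι p).wa, a ≤ k ∧ k < a + N := by
  induction p with
  | skip => intro k hk; simp [comp, nop, Prog.wa] at hk
  | push i b =>
    have hi : i < N := hp
    intro k hk; simp [comp, Prog.wa] at hk; omega
  | pop i => intro k hk; simp [comp, Prog.wa] at hk
  | query i j =>
    have hi : j < N := hp.2
    intro k hk; simp [comp, Prog.wa] at hk; omega
  | seq p q ihp ihq =>
    intro k hk
    simp only [comp, Prog.wa, List.mem_append] at hk
    exact hk.elim (ihp hp.1 k) (ihq hp.2 k)
  | ite i p q r ihp ihq ihr =>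
    intro k hk
    simp only [comp, Prog.wa, List.mem_append] at hk
    rcases hk with (hk | hk) | hk
    · exact ihr hp.2.2.2 k hk
    · exact ihq hp.2.2.1 k hk
    · exact ihp hp.2.1 k hk
  | loop i p ih =>
    intro k hk
    simp only [comp, nop, Prog.wa, List.append_nil] at hk
    exact ih hp.2 k hk

/-- No random words are used. -/
theorem comp_coins (ρ : ℕ → ℕ) (β a κ ι : ℕ) (p : SProg) :
    ∀ σ : State, ((comp β a κ ι p).run ρ σ).coins = σ.coins := by
  induction p with
  | skip => intro σ; rfl
  | push i b => intro σ; rfl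
  | pop i => intro σ; rfl
  | query i j => intro σ; rfl
  | seq p q ihp ihq => intro σ; simp only [comp, Prog.run]; rw [ihq, ihp]
  | ite i p q r ihp ihq ihr =>
    intro σ
    simp only [comp, Prog.run]
    split_ifs
    · exact ihp σ
    · exact ihq σ
    · exact ihr σ
  | loop i p ih =>
    intro σ
    simp only [comp, Prog.run]
    generalize Expr.eval σ (.reg κ) = n
    induction n with
    | zero => rfl
    | succ n ihn =>
      simp only [State.rounds]
      split_ifs
      · show (nop ι |>.run ρ _).coins = _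
        simp only [nop, Prog.run, State.setReg_coins]
        exact ihn
      · rw [ih, State.setReg_coins]
        exact ihn

theorem comp_time (ρ : ℕ → ℕ) {β a κ ι N T : ℕ} (hκι : κ ≠ ι) (hκ : κ < β ∨ β + N ≤ κ)
    (p : SProg) (hp : Vale.Agent.Lib.PolyTime.ToTM2.bounded N p) :
    ∀ σ : State, σ.reg κ = T → (comp β a κ ι p).time ρ σ ≤ tb T p := by
  have hkeep : ∀ (p : SProg), Vale.Agent.Lib.PolyTime.ToTM2.bounded N p → ∀ σ : State,
      ((comp β a κ ι p).run ρ σ).reg κ = σ.reg κ := by
    intro p hp σ
    apply ((comp β a κ ι p).frame ρ σ).reg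
    intro hk
    have := comp_wr β a κ ι N p hp κ hk
    omega
  induction p with
  | skip => intro σ _; simp [comp, nop, Prog.time, Expr.cost, tb]
  | push i b => intro σ _; simp [comp, Prog.time, Expr.cost, tb]
  | pop i => intro σ _; simp [comp, Prog.time, Expr.cost, tb]
  | query i j => intro σ _; simp [comp, Prog.time, Expr.cost, tb]
  | seq p q ihp ihq =>
    intro σ hσ
    have h1 := ihp hp.1 σ hσ
    have h2 := ihq hp.2 ((comp β a κ ι p).run ρ σ) (by rw [hkeep p hp.1]; exact hσ)
    simp only [comp, Prog.time, tb]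
    omega
  | ite i p q r ihp ihq ihr =>
    intro σ hσ
    have h1 := ihp hp.2.1 σ hσ
    have h2 := ihq hp.2.2.1 σ hσ
    have h3 := ihr hp.2.2.2 σ hσ
    simp only [comp, Prog.time, Expr.cost, tb]
    split_ifs <;> omega
  | loop i p ih =>
    intro σ hσ
    have hbody : ∀ σ' : State, σ'.reg κ = T →
        (Prog.ite (.reg (β + i)) (comp β a κ ι p) (nop ι)).time ρ σ' ≤ tb T p + 4 := by
      intro σ' h'
      have h1 := ih hp.2 σ' h'
      simp only [Prog.time, Expr.cost, nop]
      split_ifs <;> omega
    have hbk : ∀ σ' : State, ((Prog.ite (.reg (β + i)) (comp β a κ ι p) (nop ι)).run ρ σ').reg κ =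
        σ'.reg κ := by
      intro σ'
      simp only [Prog.run]
      split_ifs
      · simp only [nop, Prog.run, State.setReg_reg]
        rw [if_neg hκι]
      · exact hkeep p hp.2 σ'
    have hreg : ∀ m, (σ.rounds (fun t s' => (Prog.ite (.reg (β + i)) (comp β a κ ι p)
        (nop ι)).run ρ (s'.setReg ι t)) m).reg κ = T := by
      intro m
      induction m with
      | zero => exact hσ
      | succ m ihm =>
        show ((Prog.ite (.reg (β + i)) (comp β a κ ι p) (nop ι)).run ρ _).reg κ = T
        rw [hbk, State.setReg_reg, if_neg hκι]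
        exact ihm
    have hsum : ∑ t ∈ Finset.range T, ((Prog.ite (.reg (β + i)) (comp β a κ ι p) (nop ι)).time ρ
        ((σ.rounds (fun t s' => (Prog.ite (.reg (β + i)) (comp β a κ ι p)
        (nop ι)).run ρ (s'.setReg ι t)) t).setReg ι t) + 2) ≤
        ∑ t ∈ Finset.range T, (tb T p + 6) := by
      apply Finset.sum_le_sum
      intro t _
      have := hbody ((σ.rounds (fun t s' => (Prog.ite (.reg (β + i)) (comp β a κ ι p)
        (nop ι)).run ρ (s'.setReg ι t)) t).setReg ι t) (by
          rw [State.setReg_reg, if_neg hκι]; exact hreg t)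
      omega
    rw [Finset.sum_const, Finset.card_range, smul_eq_mul] at hsum
    show 1 + 1 + ∑ t ∈ Finset.range (σ.reg κ),
      ((Prog.ite (.reg (β + i)) (comp β a κ ι p) (nop ι)).time ρ
        ((σ.rounds (fun t s' => (Prog.ite (.reg (β + i)) (comp β a κ ι p)
        (nop ι)).run ρ (s'.setReg ι t)) t).setReg ι t) + 2) ≤ 2 + T * (tb T p + 6)
    rw [hσ]
    exact Nat.add_le_add (le_refl 2) hsum

end Vale.Agent.P315.R
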