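import Vale.Agent.P315.R.Sim

/-! Every polynomial time function on words (`Lib.PolyTime.FP ∅`) is computed by a program of the
P315 word RAM, in polynomial time and with polynomially bounded numbers. -/

set_option autoImplicit false

namespace Vale.Agent.P315.R

open Function
open Vale.Agent.Lib.PolyTime (Word FP)

/-! ### Boundedness from the top -/

theorem Bdd.of_top {E : Env} (p : Prog) (h0 : 0 ∉ p.wa) (h1 : 1 ∉ p.wa) :
    ∀ s : State, Bdd E s → p.top E.ρ s ≤ E.R → Bdd E (p.run E.ρ s) := by
  induction p with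
  | set i e => intro s hb ht; exact hb.setReg i ((Expr.eval_le_top s e).trans ht)
  | put j e e' =>
    intro s hb ht
    simp only [Prog.wa, List.mem_singleton] at h0 h1
    simp only [Prog.top] at ht
    exact hb.setArr (by omega) _ ((Expr.eval_le_top s e').trans (by omega))
  | rand i =>
    intro s hb ht
    have := hb.setReg i (v := E.ρ s.coins) ht
    exact ⟨this.reg, this.arr, this.x, this.y⟩
  | seq p q ihp ihq =>
    intro s hb ht
    simp only [Prog.wa, List.mem_append, not_or] at h0 h1
    simp only [Prog.top, max_le_iff] at ht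
    exact ihq h0.2 h1.2 _ (ihp h0.1 h1.1 s hb ht.1) ht.2
  | ite e p q ihp ihq =>
    intro s hb ht
    simp only [Prog.wa, List.mem_append, not_or] at h0 h1
    simp only [Prog.top, max_le_iff] at ht
    simp only [Prog.run]
    split_ifs with h
    · rw [if_pos h] at ht; exact ihq h0.2 h1.2 s hb ht.2
    · rw [if_neg h] at ht; exact ihp h0.1 h1.1 s hb ht.2
  | loop i e p ih =>
    intro s hb ht
    simp only [Prog.wa] at h0 h1
    simp only [Prog.top, max_le_iff, Finset.sup_le_iff, Finset.mem_range] at ht
    have he := (Expr.eval_le_top s e).trans ht.1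
    have key : ∀ m ≤ e.eval s,
        Bdd E (s.rounds (fun t s' => p.run E.ρ (s'.setReg i t)) m) := by
      intro m
      induction m with
      | zero => intro _; exact hb
      | succ m ihm =>
        intro hm
        exact ih h0 h1 _ ((ihm (by omega)).setReg i (by omega)) (ht.2 m (by omega))
    exact key _ le_rfl

/-! ### The clock -/

/-- register `κ` becomes `(reg β + 2) ^ c` -/
def powP (κ β : ℕ) : ℕ → Prog
  | 0 => .set κ (.lit 1)
  | c + 1 => .seq (powP κ β c) (.set κ (.op .mul (.reg κ) (.op .add (.reg β) (.lit 2))))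

theorem powP_wr (κ β c : ℕ) : ∀ k ∈ (powP κ β c).wr, k = κ := by
  induction c with
  | zero => intro k hk; simpa [powP, Prog.wr] using hk
  | succ c ih =>
    intro k hk
    simp only [powP, Prog.wr, List.mem_append, List.mem_singleton] at hk
    exact hk.elim (ih k) id

theorem powP_wa (κ β c : ℕ) : (powP κ β c).wa = [] := by
  induction c with
  | zero => rfl
  | succ c ih => simp [powP, Prog.wa, ih]

theorem powP_run {κ β : ℕ} (ρ : ℕ → ℕ) (h : κ ≠ β) (σ : State) (c : ℕ) :
    (powP κ β c).run ρ σ = σ.setReg κ ((σ.reg β + 2) ^ c) ∧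
    (powP κ β c).time ρ σ ≤ 7 * c + 2 ∧
    (powP κ β c).top ρ σ ≤ (σ.reg β + 2) ^ (c + 1) := by
  induction c with
  | zero => simp [powP, Prog.run, Prog.time, Prog.top, Expr.eval, Expr.cost, Expr.top]
  | succ c ih =>
    obtain ⟨h1, h2, h3⟩ := ih
    have e1 : ((powP κ β c).run ρ σ).reg κ = (σ.reg β + 2) ^ c := by rw [h1]; simp
    have e2 : ((powP κ β c).run ρ σ).reg β = σ.reg β := by
      rw [h1, State.setReg_reg, if_neg h.symm]
    have e3 : (σ.reg β + 2) ^ c * (σ.reg β + 2) = (σ.reg β + 2) ^ (c + 1) := (pow_succ _ _).symm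
    have hm : ∀ i j, i ≤ j → (σ.reg β + 2) ^ i ≤ (σ.reg β + 2) ^ j := fun i j h =>
      Nat.pow_le_pow_right (by omega) h
    refine ⟨?_, ?_, ?_⟩
    · simp only [powP, Prog.run, Expr.eval, Op.eval, e1, e2, e3]
      rw [h1]
      simp only [State.setReg, Function.update_idem]
    · simp only [powP, Prog.time, Expr.cost]; omega
    · simp only [powP, Prog.top, Expr.top, Expr.eval, Op.eval, e1, e2, e3]
      have g1 := hm c (c + 1 + 1) (by omega)
      have g2 := hm (c + 1) (c + 1 + 1) (by omega)
      have g3 := hm 1 (c + 1 + 1) (by omega)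
      simp only [pow_one] at g3
      refine max_le (h3.trans g2) (max_le (max_le g1 (max_le (max_le ?_ ?_) g3)) g2) <;> omega

/-! ### Clearing the heights -/

/-- set the registers `β + 1, …, β + n` to `0` -/
def clr (β : ℕ) : ℕ → Prog
  | 0 => .set (β + 1) (.lit 0)
  | n + 1 => .seq (clr β n) (.set (β + (n + 1)) (.lit 0))

theorem clr_wr (β n : ℕ) : ∀ k ∈ (clr β n).wr, β < k ∧ k ≤ β + n + 1 := by
  induction n with
  | zero => intro k hk; simp [clr, Prog.wr] at hk; omega
  | succ n ih =>
    intro k hk
    simp only [clr, Prog.wr, List.mem_append, List.mem_singleton] at hk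
    rcases hk with hk | hk
    · have := ih k hk; omega
    · omega

theorem clr_wa (β n : ℕ) : (clr β n).wa = [] := by
  induction n with
  | zero => rfl
  | succ n ih => simp [clr, Prog.wa, ih]

theorem clr_run (ρ : ℕ → ℕ) (β : ℕ) (σ : State) (n : ℕ) :
    (∀ k, ((clr β n).run ρ σ).reg k = if β < k ∧ k ≤ β + max n 1 then 0 else σ.reg k) ∧
    ((clr β n).run ρ σ).arr = σ.arr ∧ ((clr β n).run ρ σ).coins = σ.coins ∧
    (clr β n).time ρ σ ≤ 2 * n + 2 ∧ (clr β n).top ρ σ = 0 := by
  induction n with
  | zero =>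
    refine ⟨fun k => ?_, rfl, rfl, by simp [clr, Prog.time, Expr.cost], rfl⟩
    simp only [clr, Prog.run, State.setReg_reg, Expr.eval]
    split_ifs <;> first | rfl | omega
  | succ n ih =>
    obtain ⟨h1, h2, h3, h4, h5⟩ := ih
    refine ⟨fun k => ?_, h2, h3, ?_, ?_⟩
    · simp only [clr, Prog.run, State.setReg_reg, Expr.eval, h1]
      split_ifs <;> first | rfl | omega
    · simp only [clr, Prog.time, Expr.cost]; omega
    · simp only [clr, Prog.top, Expr.top, h5]; rfl

/-! ### Polynomial time functions -/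

/-- The word `w` is stored in array `a`, its length in register `r` (the head of the word is the
last entry). -/
structure Holds (r a : ℕ) (w : Word) (σ : State) : Prop where
  len : σ.reg r = w.length
  bit : ∀ k b, w.reverse[k]? = some b → σ.arr a k = b.toNat

/-- `P` computes `g`: the input is held in array `a` with length in register `r`, the output in
array `a + 1` with length in register `r + 1`; only registers `r, …, r + M` and arrays
`a, …, a + M` are changed, the input is kept; the running time and all numbers are at most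
`(|x| + 2) ^ d`. -/
structure Computes (P : Prog) (r a M d : ℕ) (g : Word → Word) : Prop where
  wr : ∀ k ∈ P.wr, r ≤ k ∧ k ≤ r + M
  wa : ∀ k ∈ P.wa, a ≤ k ∧ k ≤ a + M
  one : 1 ≤ M
  run : ∀ (ρ : ℕ → ℕ) (σ : State) (x : Word), Holds r a x σ →
    Holds r a x (P.run ρ σ) ∧ Holds (r + 1) (a + 1) (g x) (P.run ρ σ) ∧
    (P.run ρ σ).coins = σ.coins ∧
    P.time ρ σ ≤ (x.length + 2) ^ d ∧ P.top ρ σ ≤ (x.length + 2) ^ d

/-- Every function in `FP ∅` is computed by a program. -/
theorem exists_computes {g : Word → Word} (hg : FP ∅ g) :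
    ∃ M d : ℕ, ∀ r a : ℕ, ∃ P : Prog, Computes P r a M d g := by
  obtain ⟨p, w, c, hw, hc⟩ := hg
  obtain ⟨N0, hN0⟩ := Vale.Agent.Lib.PolyTime.ToTM2.exists_bounded p
  set N := max N0 w with hN
  have hp : Vale.Agent.Lib.PolyTime.ToTM2.bounded N p :=
    Vale.Agent.Lib.PolyTime.ToTM2.bounded_mono (le_max_left _ _) hN0
  have hN2 : 2 ≤ N := by omega
  refine ⟨N + 2, (c + 2) * tbe p + (2 * N + 7 * c + 4) + c + 4, fun r a => ?_⟩
  set κ := r + N + 1 with hκd
  set ι := r + N + 2 with hιd
  refine ⟨.seq (clr r N) (.seq (powP κ r c) (comp r a κ ι p)), ?_, ?_, by omega, ?_⟩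
  · intro k hk
    simp only [Prog.wr, List.mem_append] at hk
    rcases hk with hk | hk | hk
    · have := clr_wr r N k hk; omega
    · have := powP_wr κ r c k hk; omega
    · have := comp_wr r a κ ι N p hp k hk
      omega
  · intro k hk
    simp only [Prog.wa, List.mem_append, clr_wa, powP_wa, List.not_mem_nil, false_or] at hk
    have := comp_wa r a κ ι N p hp k hk
    omega
  · intro ρ σ x hx
    obtain ⟨c1, c2, c3, c4, c5⟩ := clr_run ρ r σ N
    set σ1 := (clr r N).run ρ σ with hσ1
    have e0 : σ1.reg r = x.length := by rw [c1, if_neg (by omega)]; exact hx.len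
    obtain ⟨p1, p2, p3⟩ := powP_run (κ := κ) (β := r) ρ (by omega) σ1 c
    rw [e0] at p1 p3
    set T := (x.length + 2) ^ c with hT
    set σ2 := (powP κ r c).run ρ σ1 with hσ2
    set s : ℕ → Word := fun i => if i = 0 then x else [] with hs
    have hr1 : Rep r a N s σ1 := by
      refine ⟨fun i hi => ?_, fun i hi k b hb => ?_⟩
      · rcases Nat.eq_zero_or_pos i with rfl | hpos
        · simpa [hs] using e0
        · rw [c1, if_pos (by omega)]
          simp [hs, hpos.ne']
      · rcases Nat.eq_zero_or_pos i with rfl | hpos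
        · rw [c2]
          simp only [hs, if_true] at hb
          exact hx.bit k b hb
        · simp [hs, hpos.ne'] at hb
    have hr2 : Rep r a N s σ2 := by rw [p1]; exact hr1.scratch (by omega) _
    have hκ2 : σ2.reg κ = T := by rw [p1]; simp
    obtain ⟨t, ht, he⟩ := hc s (fun i hi _ => by
      have h0 : i ≠ 0 := by omega
      simp only [hs, if_neg h0])
    have hs0 : s 0 = x := by simp [hs]
    rw [hs0] at ht he
    have ht' : t ≤ T := ht
    have hT1 : 1 ≤ T := Nat.one_le_pow _ _ (by omega)
    have hsim := (comp_sim (ρ := ρ) (β := r) (a := a) (κ := κ) (ι := ι) (N := N) (T := T)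
      (L := x.length + T) (W := x.length + T + 1) (by omega) (by omega) (by omega) (by omega)
      (by omega) he).1 hp ht' (fun i hi => by
        rcases Nat.eq_zero_or_pos i with rfl | hpos
        · rw [hs0]; omega
        · simp only [hs, hpos.ne', if_false, List.length_nil]; omega) σ2 hr2 hκ2
    obtain ⟨r3, m3⟩ := hsim
    have htime := comp_time ρ (β := r) (a := a) (κ := κ) (ι := ι) (N := N) (T := T) (by omega)
      (by omega) p hp σ2 hκ2
    have htb := tb_le T p
    -- powers
    have hm : ∀ i j, i ≤ j → (x.length + 2) ^ i ≤ (x.length + 2) ^ j := fun i j h =>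
      Nat.pow_le_pow_right (by omega) h
    have hq : (T + 2) ^ tbe p ≤ (x.length + 2) ^ ((c + 2) * tbe p) := by
      rw [pow_mul]
      apply Nat.pow_le_pow_left
      have : (x.length + 2) ^ (c + 2) = T * ((x.length + 2) * (x.length + 2)) := by
        rw [hT]; ring
      rw [this]
      have : 2 * 2 ≤ (x.length + 2) * (x.length + 2) := Nat.mul_le_mul (by omega) (by omega)
      nlinarith
    have hcst : 2 * N + 7 * c + 4 ≤ (x.length + 2) ^ (2 * N + 7 * c + 4) :=
      Nat.lt_two_pow_self.le.trans (Nat.pow_le_pow_left (by omega) _)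
    have h2m : ∀ i j, (x.length + 2) ^ i + (x.length + 2) ^ j ≤ (x.length + 2) ^ (i + j + 1) := by
      intro i j
      have h1 := hm i (i + j) (by omega)
      have h2 := hm j (i + j) (by omega)
      have h3 : (x.length + 2) ^ (i + j + 1) = (x.length + 2) ^ (i + j) * (x.length + 2) :=
        pow_succ _ _
      rw [h3]
      nlinarith [Nat.zero_le ((x.length + 2) ^ (i + j) * x.length)]
    have hrun : (Prog.seq (clr r N) (.seq (powP κ r c) (comp r a κ ι p))).run ρ σ =
        (comp r a κ ι p).run ρ σ2 := rfl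
    rw [hrun]
    refine ⟨⟨?_, ?_⟩, ⟨?_, ?_⟩, ?_, ?_, ?_⟩
    · have := r3.len 0 (by omega)
      rwa [update_of_ne (by omega), hs0] at this
    · have := r3.bit 0 (by omega)
      rwa [update_of_ne (by omega), hs0] at this
    · have := r3.len 1 (by omega)
      rwa [update_self] at this
    · have := r3.bit 1 (by omega)
      rwa [update_self] at this
    · rw [comp_coins]
      show ((powP κ r c).run ρ σ1).coins = _
      rw [← hσ2, p1]
      exact c3
    · show (clr r N).time ρ σ + ((powP κ r c).time ρ σ1 + (comp r a κ ι p).time ρ σ2) ≤ _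
      have h5 := h2m ((c + 2) * tbe p) (2 * N + 7 * c + 4)
      have h6 := hm ((c + 2) * tbe p + (2 * N + 7 * c + 4) + 1)
        ((c + 2) * tbe p + (2 * N + 7 * c + 4) + c + 4) (by omega)
      omega
    · show max ((clr r N).top ρ σ) (max ((powP κ r c).top ρ σ1) ((comp r a κ ι p).top ρ σ2)) ≤ _
      rw [c5]
      refine max_le (Nat.zero_le _) (max_le (p3.trans (hm _ _ (by omega))) (m3.trans ?_))
      have h6 := hm (c + 1 + 1) ((c + 2) * tbe p + (2 * N + 7 * c + 4) + c + 4) (by omega)
      have h7 := h2m c 1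
      have h8 : x.length + T + 1 ≤ (x.length + 2) ^ c + (x.length + 2) ^ 1 := by
        rw [pow_one]; omega
      exact h8.trans (h7.trans h6)

/-- The same in the form of a specification. -/
theorem Computes.spec {P : Prog} {r a M d : ℕ} {g : Word → Word} (h : Computes P r a M d g)
    (ha : 2 ≤ a) {E : Env} {s : State} {x : Word} (hx : Holds r a x s)
    (hR : (x.length + 2) ^ d ≤ E.R) :
    Spec E s P ((x.length + 2) ^ d) (fun s' => Holds r a x s' ∧
      Holds (r + 1) (a + 1) (g x) s' ∧ s'.coins = s.coins ∧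
      Frame s s' P.wr P.wa) := by
  intro hb
  obtain ⟨h1, h2, h3, h4, h5⟩ := h.run E.ρ s x hx
  refine ⟨⟨h1, h2, h3, P.frame E.ρ s⟩, ?_, h4, lt_of_le_of_lt (h5.trans hR) E.R_lt_N⟩
  apply Bdd.of_top P ?_ ?_ s hb (h5.trans hR)
  · intro hk; have := h.wa 0 hk; omega
  · intro hk; have := h.wa 1 hk; omega

end Vale.Agent.P315.R
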