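import Vale.Agent.Lib.PCP.PT.Fin
import Vale.Agent.P315.H123.Lazy

/-!
Polynomial time layer for adaptive programs (`H123.Qm`).

* `QPT lk m` : the family `m a` of adaptive programs, run against tables of a type `τ` with lookup
  function `lk`, is computable in polynomial time (in the size of `a` and of the table).
* closure rules: `QPT.pure`, `query`, `bind`, `map`, `comp`, `cond`, `ite`, `optCase`, `listCase`,
  `mapM`, `askList`, `foldM`.
* `look`, `lookS` : lookups in association lists are polynomial time.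
* `clamp` : values of size above a bound are replaced by a default value.
-/

set_option autoImplicit false
set_option linter.unusedSectionVars false

namespace Vale.Agent.P315.R

open Vale.Agent.Lib.PolyTime Vale.Agent.P315.H123

section PTaux

variable {O : Set Word} {α β γ δ : Type*} [Enc α] [Enc β] [Enc γ] [Enc δ]

/-- Case distinction on a disjoint sum. -/
theorem pt_sumCase {s : α → β ⊕ γ} {f : α → β → δ} {g : α → γ → δ} (hs : PT O s)
    (hf : PT O (fun p : α × β => f p.1 p.2)) (hg : PT O (fun p : α × γ => g p.1 p.2)) :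
    PT O (fun a => match s a with | Sum.inl b => f a b | Sum.inr c => g a c) := by
  obtain ⟨L, hL, hL'⟩ := hs
  obtain ⟨F, hF, hF'⟩ := hf
  obtain ⟨G, hG, hG'⟩ := hg
  refine ⟨_, hL.case3 FP.nil (hF.comp (FP.id.pair (FP.tail.comp hL)))
    (hG.comp (FP.id.pair (FP.tail.comp hL))), fun a => ?_⟩
  rw [hL']
  beta_reduce
  rcases e : s a with b | c
  · have := hF' (a, b)
    rw [enc_pair] at this
    rw [enc_inl, List.tail_cons, this]
    simp
  · have := hG' (a, c)
    rw [enc_pair] at this
    rw [enc_inr, List.tail_cons, this]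
    simp

theorem esize_inl (b : β) : esize (Sum.inl b : β ⊕ γ) = esize b + 1 := by
  simp [esize, enc_inl]

theorem esize_inr (c : γ) : esize (Sum.inr c : β ⊕ γ) = esize c + 1 := by
  simp [esize, enc_inr]

/-- Replace a value of size larger than `B` by a default. -/
def clamp (B : ℕ) (d x : β) : β := if esize x ≤ B then x else d

theorem clamp_of_le {B : ℕ} {d x : β} (h : esize x ≤ B) : clamp B d x = x := if_pos h

theorem esize_clamp_le {B : ℕ} {d x : β} (h : esize d ≤ B) : esize (clamp B d x) ≤ B := by
  unfold clamp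
  split_ifs with h1
  · exact h1
  · exact h

theorem pt_clamp {B : α → ℕ} {d x : α → β} (hB : PT O B) (hd : PT O d) (hx : PT O x) :
    PT O (fun a => clamp (B a) (d a) (x a)) :=
  PT.ite (PT.le hx.size hB) hx hd

end PTaux

/-! ### Lookups in association lists -/

section Look

variable {O : Set Word} {α : Type*} [Enc α]
variable {Q A E : Type} [Enc Q] [Enc A] [Enc E] [EncInj Q] [DecidableEq Q]

theorem pt_look : PT O (fun p : List (Q × A) × Q => Qm.look p.1 p.2) := by
  have h1 : PT O (fun p : List (Q × A) × Q => p.1.find? (fun r => r.1 == p.2)) := by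
    refine PT.find? (f := fun (p : List (Q × A) × Q) r => r.1 == p.2) PT.fst' ?_
    exact (PT.eq PT.snd'.fst PT.fst'.snd).congr fun p => by
      rw [Bool.eq_iff_iff, decide_eq_true_eq, beq_iff_eq]
  refine (PT.optCase (f := fun p => (Sum.inr p.2 : A ⊕ Q))
    (g := fun _ (r : Q × A) => (Sum.inl r.2 : A ⊕ Q)) h1
    (PT.inr (f := fun p : List (Q × A) × Q => p.2) PT.snd')
    (PT.inl PT.snd'.snd)).congr fun p => ?_
  unfold Qm.look
  cases p.1.find? (fun r => r.1 == p.2) <;> rfl

/-- Look an entry up in a table of values and exceptions; a missing entry is the exception `d q`. -/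
def lookS (T : List (Q × (A ⊕ Q))) (q : Q) : A ⊕ Q :=
  match T.find? (fun p => p.1 == q) with
  | some p => p.2
  | none => .inr q

theorem pt_lookS : PT O (fun p : List (Q × (A ⊕ Q)) × Q => lookS p.1 p.2) := by
  have h1 : PT O (fun p : List (Q × (A ⊕ Q)) × Q => p.1.find? (fun r => r.1 == p.2)) := by
    refine PT.find? (f := fun (p : List (Q × (A ⊕ Q)) × Q) r => r.1 == p.2) PT.fst' ?_
    exact (PT.eq PT.snd'.fst PT.fst'.snd).congr fun p => by
      rw [Bool.eq_iff_iff, decide_eq_true_eq, beq_iff_eq]
  refine (PT.optCase (f := fun p => (Sum.inr p.2 : A ⊕ Q))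
    (g := fun _ (r : Q × (A ⊕ Q)) => r.2) h1
    (PT.inr (f := fun p : List (Q × (A ⊕ Q)) × Q => p.2) PT.snd')
    PT.snd'.snd).congr fun p => ?_
  unfold lookS
  cases p.1.find? (fun r => r.1 == p.2) <;> rfl

end Look

/-! ### Families of adaptive programs -/

section QPT

variable {α β γ : Type*} [Enc α] [Enc β] [Enc γ]
variable {τ Q A V W E : Type} [Enc τ] [Enc Q] [Enc A] [Enc V] [Enc W] [Enc E]

/-- The adaptive programs `m a`, run against tables, are computable in polynomial time. -/
def QPT (lk : τ → Q → A ⊕ E) (m : α → Qm Q A V) : Prop :=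
  PT ∅ (fun p : α × τ => (m p.1).tab (lk p.2))

variable {lk : τ → Q → A ⊕ E}

theorem QPT.congr {m m' : α → Qm Q A V} (h : QPT lk m) (e : ∀ a, m a = m' a) : QPT lk m' :=
  PT.congr h fun p => by rw [e p.1]

/-- The rule can be changed when the results on all tables agree. -/
theorem QPT.congr_tab {m m' : α → Qm Q A V} (h : QPT lk m)
    (e : ∀ a t, (m a).tab (lk t) = (m' a).tab (lk t)) : QPT lk m' :=
  PT.congr h fun p => e p.1 p.2

theorem QPT.pure {f : α → V} (hf : PT ∅ f) : QPT lk (fun a => (.pure (f a) : Qm Q A V)) :=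
  (PT.inl (hf.comp PT.fst'))

theorem QPT.query (hlk : PT ∅ (fun p : τ × Q => lk p.1 p.2)) {q : α → Q} (hq : PT ∅ q) :
    QPT lk (fun a => (Qm.query (q a) : Qm Q A A)) := by
  have h1 : PT ∅ (fun p : α × τ => lk p.2 (q p.1)) := hlk.comp (PT.snd'.pair (hq.comp PT.fst'))
  refine h1.congr fun p => ?_
  unfold Qm.query
  simp only [Qm.tab]
  cases lk p.2 (q p.1) <;> rfl

theorem QPT.bind {m : α → Qm Q A V} {f : α → V → Qm Q A W} (hm : QPT lk m)
    (hf : QPT lk (fun p : α × V => f p.1 p.2)) : QPT lk (fun a => (m a).bind (f a)) := by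
  have h1 : PT ∅ (fun q : (α × τ) × V => (f q.1.1 q.2).tab (lk q.1.2)) :=
    PT.comp hf ((PT.fst'.fst.pair PT.snd').pair PT.fst'.snd)
  have h2 : PT ∅ (fun q : (α × τ) × E => (Sum.inr q.2 : W ⊕ E)) := PT.inr PT.snd'
  refine (pt_sumCase (s := fun p : α × τ => (m p.1).tab (lk p.2))
    (f := fun p v => (f p.1 v).tab (lk p.2)) (g := fun _ e => (Sum.inr e : W ⊕ E)) hm h1 h2).congr
    fun p => ?_
  rw [Qm.tab_bind]
  cases (m p.1).tab (lk p.2) <;> rfl

theorem QPT.comp {m : β → Qm Q A V} (hm : QPT lk m) {f : α → β} (hf : PT ∅ f) :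
    QPT lk (fun a => m (f a)) :=
  PT.comp hm ((hf.comp PT.fst').pair PT.snd')

theorem QPT.map {m : α → Qm Q A V} {f : α → V → W} (hm : QPT lk m)
    (hf : PT ∅ (fun p : α × V => f p.1 p.2)) : QPT lk (fun a => (m a).map (f a)) :=
  QPT.bind hm (f := fun a v => .pure (f a v)) (QPT.pure hf)

/-- Ask a query and continue. -/
theorem QPT.ask (hlk : PT ∅ (fun p : τ × Q => lk p.1 p.2)) {q : α → Q} {k : α → A → Qm Q A V}
    (hq : PT ∅ q) (hk : QPT lk (fun p : α × A => k p.1 p.2)) :
    QPT lk (fun a => (.ask (q a) (k a) : Qm Q A V)) :=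
  (QPT.bind (QPT.query hlk hq) hk).congr fun _ => rfl

theorem QPT.cond {c : α → Bool} {m m' : α → Qm Q A V} (hc : PT ∅ c) (hm : QPT lk m)
    (hm' : QPT lk m') : QPT lk (fun a => bif c a then m a else m' a) :=
  (PT.cond (c := fun p : α × τ => c p.1) (hc.comp PT.fst') hm hm').congr fun p => by
    beta_reduce
    cases c p.1 <;> rfl

theorem QPT.ite {c : α → Prop} [DecidablePred c] {m m' : α → Qm Q A V}
    (hc : PT ∅ (fun a => decide (c a))) (hm : QPT lk m) (hm' : QPT lk m') :
    QPT lk (fun a => if c a then m a else m' a) :=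
  (QPT.cond hc hm hm').congr fun a => by
    by_cases h : c a <;> simp [h]

theorem QPT.optCase {o : α → Option β} {m : α → Qm Q A V} {m' : α → β → Qm Q A V}
    (ho : PT ∅ o) (hm : QPT lk m) (hm' : QPT lk (fun p : α × β => m' p.1 p.2)) :
    QPT lk (fun a => match o a with | none => m a | some b => m' a b) := by
  refine (PT.optCase (o := fun p : α × τ => o p.1) (f := fun p => (m p.1).tab (lk p.2))
    (g := fun p b => (m' p.1 b).tab (lk p.2)) (ho.comp PT.fst') hm
    (PT.comp hm' ((PT.fst'.fst.pair PT.snd').pair PT.fst'.snd))).congr fun p => ?_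
  beta_reduce
  cases o p.1 <;> rfl

theorem QPT.listCase {l : α → List β} {m : α → Qm Q A V} {m' : α → β → List β → Qm Q A V}
    (hl : PT ∅ l) (hm : QPT lk m) (hm' : QPT lk (fun p : α × β × List β => m' p.1 p.2.1 p.2.2)) :
    QPT lk (fun a => match l a with | [] => m a | b :: t => m' a b t) := by
  refine (PT.listCase (l := fun p : α × τ => l p.1) (f := fun p => (m p.1).tab (lk p.2))
    (g := fun p b t => (m' p.1 b t).tab (lk p.2)) (hl.comp PT.fst') hm
    (PT.comp hm' ((PT.fst'.fst.pair PT.snd').pair PT.fst'.snd))).congr fun p => ?_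
  beta_reduce
  cases l p.1 <;> rfl

theorem QPT.sumCase {s : α → β ⊕ γ} {m : α → β → Qm Q A V} {m' : α → γ → Qm Q A V}
    (hs : PT ∅ s) (hm : QPT lk (fun p : α × β => m p.1 p.2))
    (hm' : QPT lk (fun p : α × γ => m' p.1 p.2)) :
    QPT lk (fun a => match s a with | Sum.inl b => m a b | Sum.inr c => m' a c) := by
  refine (pt_sumCase (s := fun p : α × τ => s p.1) (f := fun p b => (m p.1 b).tab (lk p.2))
    (g := fun p c => (m' p.1 c).tab (lk p.2)) (hs.comp PT.fst')
    (PT.comp hm ((PT.fst'.fst.pair PT.snd').pair PT.fst'.snd))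
    (PT.comp hm' ((PT.fst'.fst.pair PT.snd').pair PT.fst'.snd))).congr fun p => ?_
  beta_reduce
  cases s p.1 <;> rfl

/-- A list of adaptive programs, one for every element of a list. -/
def mapM (f : β → Qm Q A V) (l : List β) : Qm Q A (List V) := Qm.seqList (l.map f)

@[simp] theorem val_mapM (o : Q → A) (f : β → Qm Q A V) (l : List β) :
    (mapM f l).val o = l.map fun b => (f b).val o := by
  simp [mapM, Function.comp_def]

@[simp] theorem reads_mapM (o : Q → A) (f : β → Qm Q A V) (l : List β) :
    (mapM f l).reads o = l.flatMap fun b => (f b).reads o := by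
  simp [mapM, List.flatMap_map]

/-- One step of the evaluation of a list of programs against a table. -/
def mapStep (x : V ⊕ E) (acc : List V ⊕ E) : List V ⊕ E :=
  match x with
  | .inl v => match acc with
    | .inl l => .inl (v :: l)
    | .inr e => .inr e
  | .inr e => .inr e

theorem tab_mapM (t : Q → A ⊕ E) (f : β → Qm Q A V) (l : List β) :
    (mapM f l).tab t = l.foldr (fun b acc => mapStep ((f b).tab t) acc) (.inl []) := by
  induction l with
  | nil => rfl
  | cons b l ih =>
    have h1 : mapM f (b :: l) = (f b).bind fun v => (mapM f l).map (v :: ·) := rfl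
    rw [h1, Qm.tab_bind, List.foldr_cons, ← ih]
    cases (f b).tab t with
    | inr e => rfl
    | inl v =>
      simp only [Qm.map, Qm.tab_bind, mapStep]
      cases (mapM f l).tab t <;> rfl

theorem QPT.mapM {l : α → List β} {m : α → β → Qm Q A V} (hl : PT ∅ l)
    (hm : QPT lk (fun p : α × β => m p.1 p.2)) : QPT lk (fun a => R.mapM (m a) (l a)) := by
  have hl' : PT ∅ (fun p : α × τ => l p.1) := hl.comp PT.fst'
  have h1 : PT ∅ (fun q : (α × τ) × β => (m q.1.1 q.2).tab (lk q.1.2)) :=
    PT.comp hm ((PT.fst'.fst.pair PT.snd').pair PT.fst'.snd)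
  obtain ⟨b, hb, hb'⟩ := PT.bound_mem (f := fun (p : α × τ) x => (m p.1 x).tab (lk p.2)) hl' h1
  have hstep : PT ∅ (fun q : (V ⊕ E) × (List V ⊕ E) => mapStep q.1 q.2) := by
    have e1 : PT ∅ (fun q : ((V ⊕ E) × (List V ⊕ E)) × V =>
        (match q.1.2 with
        | .inl l => .inl (q.2 :: l)
        | .inr e => .inr e : List V ⊕ E)) := by
      refine (pt_sumCase (s := fun q : ((V ⊕ E) × (List V ⊕ E)) × V => q.1.2)
        (f := fun q l => (Sum.inl (q.2 :: l) : List V ⊕ E)) (g := fun _ e => (Sum.inr e : List V ⊕ E))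
        PT.fst'.snd (PT.inl (PT.cons PT.fst'.snd PT.snd')) (PT.inr PT.snd')).congr fun q => ?_
      rcases q with ⟨⟨x, l | e⟩, v⟩ <;> rfl
    refine (pt_sumCase (s := fun q : (V ⊕ E) × (List V ⊕ E) => q.1)
      (f := fun q v => (match q.2 with
        | .inl l => .inl (v :: l)
        | .inr e => .inr e : List V ⊕ E)) (g := fun _ e => (Sum.inr e : List V ⊕ E))
      PT.fst' e1 (PT.inr PT.snd')).congr fun q => ?_
    rcases q with ⟨v | e, l | e'⟩ <;> rfl
  have hB : PBd (fun p : α × τ => esize (l p.1) * (2 * b p + 1) + b p + 2) := by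
    have := hl'.pbd
    fun_prop
  have key : ∀ (p : α × τ) (i : ℕ),
      esize (((l p.1).drop i).foldr (fun x acc => mapStep ((m p.1 x).tab (lk p.2)) acc)
        (Sum.inl [] : List V ⊕ E)) ≤ esize (l p.1) * (2 * b p + 1) + b p + 2 := by
    intro p i
    have h2 : ∀ l' : List β, (∀ x ∈ l', x ∈ l p.1) →
        esize (l'.foldr (fun x acc => mapStep ((m p.1 x).tab (lk p.2)) acc)
        (Sum.inl [] : List V ⊕ E)) ≤ l'.length * (2 * b p + 1) + b p + 2 := by
      intro l'
      induction l' with
      | nil => intro _; rw [List.foldr_nil, esize_inl, esize_list_nil]; omega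
      | cons x l' ih =>
        intro hx
        have ih' := ih fun y hy => hx y (List.mem_cons_of_mem _ hy)
        rw [List.foldr_cons]
        have hxb := hb' p x (hx x List.mem_cons_self)
        rw [List.length_cons, Nat.add_mul, Nat.one_mul]
        cases e1 : (m p.1 x).tab (lk p.2) with
        | inr e =>
          rw [e1] at hxb
          simp only [mapStep]
          rw [esize_inr] at hxb ⊢
          omega
        | inl v =>
          rw [e1, esize_inl] at hxb
          cases e2 : l'.foldr (fun x acc => mapStep ((m p.1 x).tab (lk p.2)) acc)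
              (Sum.inl [] : List V ⊕ E) with
          | inr e =>
            rw [e2] at ih'
            simp only [mapStep]
            rw [esize_inr] at ih' ⊢
            omega
          | inl vs =>
            rw [e2, esize_inl] at ih'
            simp only [mapStep]
            rw [esize_inl, esize_list_cons]
            omega
    refine (h2 _ fun x hx => List.mem_of_mem_drop hx).trans ?_
    have h3 : ((l p.1).drop i).length ≤ esize (l p.1) :=
      (by rw [List.length_drop]; exact Nat.sub_le _ _ : ((l p.1).drop i).length ≤ (l p.1).length).trans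
        (length_le_esize _)
    have := Nat.mul_le_mul_right (2 * b p + 1) h3
    omega
  refine (PT.foldr (l := fun p : α × τ => l p.1) (init := fun _ => (Sum.inl [] : List V ⊕ E))
    (f := fun p x acc => mapStep ((m p.1 x).tab (lk p.2)) acc) hl' (PT.const _)
    (hstep.comp ((h1.comp (PT.fst'.pair PT.snd'.fst)).pair PT.snd'.snd)) hB key).congr fun p => ?_
  rw [tab_mapM]

theorem QPT.askList (hlk : PT ∅ (fun p : τ × Q => lk p.1 p.2)) {l : α → List Q} (hl : PT ∅ l) :
    QPT lk (fun a => (Qm.askList (l a) : Qm Q A (List A))) :=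
  QPT.mapM (m := fun _ q => Qm.query q) hl (QPT.query hlk PT.snd')

/-- Monadic left fold. -/
def foldM (f : V → β → Qm Q A V) : V → List β → Qm Q A V
  | v, [] => .pure v
  | v, b :: l => (f v b).bind fun v' => foldM f v' l

@[simp] theorem val_foldM (o : Q → A) (f : V → β → Qm Q A V) (v : V) (l : List β) :
    (foldM f v l).val o = l.foldl (fun v b => (f v b).val o) v := by
  induction l generalizing v with
  | nil => rfl
  | cons b l ih => simp [foldM, ih]

/-- One step of the evaluation of a monadic fold against a table. -/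
def foldStep (f : V → β → V ⊕ E) (acc : V ⊕ E) (b : β) : V ⊕ E :=
  match acc with
  | .inl v => f v b
  | .inr e => .inr e

theorem foldl_foldStep_inr (f : V → β → V ⊕ E) (e : E) (l : List β) :
    l.foldl (foldStep f) (.inr e) = .inr e := by
  induction l with
  | nil => rfl
  | cons b l ih => exact ih

theorem tab_foldM (t : Q → A ⊕ E) (f : V → β → Qm Q A V) (v : V) (l : List β) :
    (foldM f v l).tab t = l.foldl (foldStep fun v b => (f v b).tab t) (.inl v) := by
  induction l generalizing v with
  | nil => rfl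
  | cons b l ih =>
    simp only [foldM, List.foldl_cons, Qm.tab_bind]
    have h1 : foldStep (fun v b => (f v b).tab t) (.inl v) b = (f v b).tab t := rfl
    rw [h1]
    cases (f v b).tab t with
    | inl v' => exact ih v'
    | inr e => rw [foldl_foldStep_inr]

/-- Monadic fold with a polynomial bound for the accumulators (for all tables). -/
theorem QPT.foldM {l : α → List β} {v : α → V} {f : α → V → β → Qm Q A V} (hl : PT ∅ l)
    (hv : PT ∅ v) (hf : QPT lk (fun p : α × V × β => f p.1 p.2.1 p.2.2))
    {b : α × τ → ℕ} (hb : PBd b)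
    (h : ∀ a t i, esize (((l a).take i).foldl (foldStep fun v x => (f a v x).tab (lk t))
      (Sum.inl (v a))) ≤ b (a, t)) :
    QPT lk (fun a => R.foldM (f a) (v a) (l a)) := by
  have h1 : PT ∅ (fun q : ((α × τ) × (V ⊕ E) × β) × V =>
      (f q.1.1.1 q.2 q.1.2.2).tab (lk q.1.1.2)) :=
    PT.comp hf ((PT.fst'.fst.fst.pair (PT.snd'.pair PT.fst'.snd.snd)).pair PT.fst'.fst.snd)
  have hstep : PT ∅ (fun q : (α × τ) × (V ⊕ E) × β =>
      foldStep (fun v x => (f q.1.1 v x).tab (lk q.1.2)) q.2.1 q.2.2) := by
    refine (pt_sumCase (s := fun q : (α × τ) × (V ⊕ E) × β => q.2.1)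
      (f := fun q v => (f q.1.1 v q.2.2).tab (lk q.1.2)) (g := fun _ e => (Sum.inr e : V ⊕ E))
      PT.snd'.fst h1 (PT.inr PT.snd')).congr fun q => ?_
    rcases q with ⟨⟨a, t⟩, ⟨v | e, x⟩⟩ <;> rfl
  refine (PT.foldl (l := fun p : α × τ => l p.1) (init := fun p => (Sum.inl (v p.1) : V ⊕ E))
    (f := fun p acc x => foldStep (fun v x => (f p.1 v x).tab (lk p.2)) acc x) (hl.comp PT.fst')
    (PT.inl (hv.comp PT.fst')) hstep hb fun p i => h p.1 p.2 i).congr fun p => ?_
  rw [tab_foldM]

/-- A sufficient condition for the accumulators: an invariant `size v ≤ b` kept by every step and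
bounded exceptions. -/
theorem foldStep_bound (g : V → β → V ⊕ E) (l : List β) (v : V) (B : ℕ) (hv : esize v < B)
    (h : ∀ v' : V, esize v' < B → ∀ x ∈ l, esize (g v' x) ≤ B) (i : ℕ) :
    esize ((l.take i).foldl (foldStep g) (Sum.inl v)) ≤ B := by
  have key : ∀ (l' : List β) (x : V ⊕ E), (∀ y ∈ l', y ∈ l) → esize x ≤ B →
      esize (l'.foldl (foldStep g) x) ≤ B := by
    intro l'
    induction l' with
    | nil => intro x _ hx; exact hx
    | cons y l' ih =>
      intro x hy hx
      rw [List.foldl_cons]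
      apply ih _ (fun z hz => hy z (List.mem_cons_of_mem _ hz))
      cases x with
      | inr e => exact hx
      | inl v' =>
        rw [esize_inl] at hx
        exact h v' (by omega) y (hy y List.mem_cons_self)
  exact key _ _ (fun y hy => List.mem_of_mem_take hy) (by rw [esize_inl]; omega)

end QPT

end Vale.Agent.P315.R
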