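import Vale.Agent.P315.R.Comp

/-! The compiled stack program simulates the stack program. -/

set_option autoImplicit false

namespace Vale.Agent.P315.R

open Function
open Vale.Agent.Lib.PolyTime (Word)

/-- The stacks `s i`, `i < N`, are stored in the arrays `a + i`, with heights in the registers
`β + i`. -/
structure Rep (β a N : ℕ) (s : ℕ → Word) (σ : State) : Prop where
  len : ∀ i < N, σ.reg (β + i) = (s i).length
  bit : ∀ i < N, ∀ k b, (s i).reverse[k]? = some b → σ.arr (a + i) k = b.toNat

variable {β a κ ι N : ℕ}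

theorem Rep.frame {s : ℕ → Word} {σ σ' : State} (h : Rep β a N s σ)
    (hr : ∀ i < N, σ'.reg (β + i) = σ.reg (β + i)) (ha : ∀ i < N, σ'.arr (a + i) = σ.arr (a + i)) :
    Rep β a N s σ' :=
  ⟨fun i hi => (hr i hi).trans (h.len i hi), fun i hi k b hb => by
    rw [ha i hi]; exact h.bit i hi k b hb⟩

theorem Rep.scratch {s : ℕ → Word} {σ : State} (h : Rep β a N s σ) (hι : ι < β ∨ β + N ≤ ι)
    (v : ℕ) : Rep β a N s (σ.setReg ι v) :=
  h.frame (fun i hi => by rw [State.setReg_reg, if_neg (by omega)]) (fun _ _ => rfl)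

theorem Rep.push {s : ℕ → Word} {σ : State} (h : Rep β a N s σ) {i : ℕ} (hi : i < N) (b : Bool) :
    Rep β a N (update s i (b :: s i))
      ((σ.setArr (a + i) (s i).length b.toNat).setReg (β + i) ((s i).length + 1)) := by
  refine ⟨fun j hj => ?_, fun j hj k c hc => ?_⟩
  · rw [State.setReg_reg]
    rcases eq_or_ne j i with rfl | hji
    · simp
    · rw [if_neg (by omega), update_of_ne hji]
      exact h.len j hj
  · simp only [State.setReg_arr, State.setArr_arr]
    rcases eq_or_ne j i with rfl | hji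
    · simp only [update_self, List.reverse_cons] at hc
      by_cases hk : k = (s j).length
      · subst hk
        rw [if_pos ⟨rfl, rfl⟩]
        rw [List.getElem?_append_right (by simp)] at hc
        simp at hc
        rw [hc]
      · rw [if_neg (by tauto)]
        have hk' : k < (s j).length := by
          by_contra hcon
          rw [List.getElem?_append_right (by simp; omega)] at hc
          have : k - (s j).reverse.length ≠ 0 := by simp; omega
          obtain ⟨m, hm⟩ := Nat.exists_eq_succ_of_ne_zero this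
          rw [hm] at hc
          simp at hc
        rw [List.getElem?_append_left (by simpa using hk')] at hc
        exact h.bit j hj k c hc
    · rw [update_of_ne hji] at hc
      rw [if_neg (by omega)]
      exact h.bit j hj k c hc

theorem Rep.pop {s : ℕ → Word} {σ : State} (h : Rep β a N s σ) {i : ℕ} (hi : i < N) :
    Rep β a N (update s i (s i).tail) (σ.setReg (β + i) ((s i).length - 1)) := by
  refine ⟨fun j hj => ?_, fun j hj k c hc => ?_⟩
  · rw [State.setReg_reg]
    rcases eq_or_ne j i with rfl | hji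
    · simp
    · rw [if_neg (by omega), update_of_ne hji]
      exact h.len j hj
  · rw [State.setReg_arr]
    rcases eq_or_ne j i with rfl | hji
    · rw [update_self] at hc
      apply h.bit j hj k c
      cases hs : s j with
      | nil => rw [hs] at hc; simp at hc
      | cons b w =>
        rw [hs, List.tail_cons] at hc
        have hk : k < w.reverse.length := (List.getElem?_eq_some_iff.1 hc).1
        rw [List.reverse_cons, List.getElem?_append_left hk]
        exact hc
    · rw [update_of_ne hji] at hc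
      exact h.bit j hj k c hc

/-- The top of a nonempty stack. -/
theorem Rep.head {s : ℕ → Word} {σ : State} (h : Rep β a N s σ) {i : ℕ} (hi : i < N) {b : Bool}
    (hb : (s i).head? = some b) : σ.arr (a + i) ((s i).length - 1) = b.toNat := by
  apply h.bit i hi
  cases hs : s i with
  | nil => rw [hs] at hb; simp at hb
  | cons c w =>
    rw [hs] at hb
    simp at hb
    subst hb
    simp

/-! ### Rounds, peeled off at the start -/

/-- `n` rounds, the first of which has number `k`. -/
def iterFrom (f : ℕ → State → State) : ℕ → ℕ → State → State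
  | 0, _, σ => σ
  | n + 1, k, σ => iterFrom f n (k + 1) (f k σ)

theorem iterFrom_succ (f : ℕ → State → State) (n k : ℕ) (σ : State) :
    iterFrom f (n + 1) k σ = f (k + n) (iterFrom f n k σ) := by
  induction n generalizing k σ with
  | zero => rfl
  | succ n ih =>
    rw [iterFrom, ih]
    rw [iterFrom]
    congr 1
    omega

theorem rounds_eq (f : ℕ → State → State) (n : ℕ) (σ : State) :
    σ.rounds f n = iterFrom f n 0 σ := by
  induction n with
  | zero => rfl
  | succ n ih => rw [iterFrom_succ, ← ih, Nat.zero_add]; rfl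

/-- The body of a compiled loop. -/
def body (β a κ ι i : ℕ) (p : SProg) : Prog :=
  .ite (.reg (β + i)) (comp β a κ ι p) (nop ι)

/-- One round of a compiled loop. -/
def rnd (ρ : ℕ → ℕ) (β a κ ι i : ℕ) (p : SProg) (k : ℕ) (σ : State) : State :=
  (body β a κ ι i p).run ρ (σ.setReg ι k)

/-- All tops in `n` rounds are at most `W`. -/
def topsLe (ρ : ℕ → ℕ) (β a κ ι i : ℕ) (p : SProg) (W n k : ℕ) (σ : State) : Prop :=
  ∀ m < n, (body β a κ ι i p).top ρ
    ((iterFrom (rnd ρ β a κ ι i p) m k σ).setReg ι (k + m)) ≤ W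

theorem topsLe_succ {ρ : ℕ → ℕ} {i : ℕ} {p : SProg} {W n k : ℕ} {σ : State}
    (h : (body β a κ ι i p).top ρ (σ.setReg ι k) ≤ W)
    (h' : topsLe ρ β a κ ι i p W n (k + 1) (rnd ρ β a κ ι i p k σ)) :
    topsLe ρ β a κ ι i p W (n + 1) k σ := by
  intro m hm
  cases m with
  | zero => simpa [iterFrom] using h
  | succ m =>
    have := h' m (by omega)
    rw [iterFrom]
    rwa [show k + (m + 1) = k + 1 + m by omega]

theorem body_idle {ρ : ℕ → ℕ} {i : ℕ} {p : SProg} {s : ℕ → Word} {σ : State} (hi : i < N)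
    (hι : ι < β ∨ β + N ≤ ι) (h : Rep β a N s σ) (hs : s i = []) (k : ℕ) :
    rnd ρ β a κ ι i p k σ = (σ.setReg ι k).setReg ι 0 ∧
      (body β a κ ι i p).top ρ (σ.setReg ι k) = 0 := by
  have h0 : (σ.setReg ι k).reg (β + i) = 0 := by
    rw [State.setReg_reg, if_neg (by omega), h.len i hi, hs]; rfl
  constructor
  · simp only [rnd, body, Prog.run, Expr.eval, h0, if_true, nop]
  · simp only [body, Prog.top, Expr.eval, Expr.top, h0, if_true, nop]
    rfl

theorem idle {ρ : ℕ → ℕ} {i : ℕ} {p : SProg} {s : ℕ → Word} {W : ℕ} (hi : i < N)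
    (hι : ι < β ∨ β + N ≤ ι) (hs : s i = []) (n : ℕ) : ∀ (k : ℕ) (σ : State), Rep β a N s σ →
    Rep β a N s (iterFrom (rnd ρ β a κ ι i p) n k σ) ∧ topsLe ρ β a κ ι i p W n k σ := by
  induction n with
  | zero => intro k σ h; exact ⟨h, fun m hm => absurd hm (by omega)⟩
  | succ n ih =>
    intro k σ h
    obtain ⟨h1, h2⟩ := body_idle (κ := κ) (ρ := ρ) (p := p) hi hι h hs k
    have h3 : Rep β a N s (rnd ρ β a κ ι i p k σ) := by
      rw [h1]; exact (h.scratch hι k).scratch hι 0
    obtain ⟨h4, h5⟩ := ih (k + 1) _ h3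
    exact ⟨h4, topsLe_succ (by rw [h2]; exact Nat.zero_le _) h5⟩

theorem keep_clock (ρ : ℕ → ℕ) (hκι : κ ≠ ι) (hκ : κ < β ∨ β + N ≤ κ) (p : SProg)
    (hp : Vale.Agent.Lib.PolyTime.ToTM2.bounded N p) (σ : State) :
    ((comp β a κ ι p).run ρ σ).reg κ = σ.reg κ := by
  apply ((comp β a κ ι p).frame ρ σ).reg
  intro hk
  have := comp_wr β a κ ι N p hp κ hk
  omega

/-- The simulation. -/
theorem comp_sim {ρ : ℕ → ℕ} {T L W : ℕ} (hκι : κ ≠ ι) (hκ : κ < β ∨ β + N ≤ κ)
    (hι : ι < β ∨ β + N ≤ ι) (hLW : L + 1 ≤ W) (hTW : T ≤ W)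
    {p : SProg} {s s' : ℕ → Word} {t : ℕ} (he : SEval p s t s') :
    (Vale.Agent.Lib.PolyTime.ToTM2.bounded N p → t ≤ T → (∀ i < N, (s i).length + t ≤ L) →
      ∀ σ : State, Rep β a N s σ → σ.reg κ = T →
        Rep β a N s' ((comp β a κ ι p).run ρ σ) ∧ (comp β a κ ι p).top ρ σ ≤ W) ∧
    (∀ i q, p = .loop i q → Vale.Agent.Lib.PolyTime.ToTM2.bounded N p → t ≤ T →
      (∀ i < N, (s i).length + t ≤ L) → ∀ n, t ≤ n → ∀ (k : ℕ) (σ : State), k + n ≤ T →
      Rep β a N s σ → σ.reg κ = T →
        Rep β a N s' (iterFrom (rnd ρ β a κ ι i q) n k σ) ∧ topsLe ρ β a κ ι i q W n k σ) := by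
  have hloop : ∀ {i : ℕ} {q : SProg} {s s' : ℕ → Word} {t : ℕ},
      (Vale.Agent.Lib.PolyTime.ToTM2.bounded N (.loop i q) → t ≤ T →
      (∀ i < N, (s i).length + t ≤ L) → ∀ n, t ≤ n → ∀ (k : ℕ) (σ : State), k + n ≤ T →
      Rep β a N s σ → σ.reg κ = T →
        Rep β a N s' (iterFrom (rnd ρ β a κ ι i q) n k σ) ∧ topsLe ρ β a κ ι i q W n k σ) →
      (Vale.Agent.Lib.PolyTime.ToTM2.bounded N (.loop i q) → t ≤ T →
        (∀ i < N, (s i).length + t ≤ L) → ∀ σ : State, Rep β a N s σ → σ.reg κ = T →
        Rep β a N s' ((comp β a κ ι (.loop i q)).run ρ σ) ∧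
          (comp β a κ ι (.loop i q)).top ρ σ ≤ W) := by
    intro i q s s' t h hp ht hL σ hσ hT
    obtain ⟨h1, h2⟩ := h hp ht hL T ht 0 σ (by omega) hσ hT
    have e1 : (comp β a κ ι (.loop i q)).run ρ σ = iterFrom (rnd ρ β a κ ι i q) T 0 σ := by
      rw [← rounds_eq]
      show σ.rounds _ (σ.reg κ) = _
      rw [hT]
      rfl
    refine ⟨by rw [e1]; exact h1, ?_⟩
    show max (σ.reg κ) ((Finset.range (σ.reg κ)).sup fun t => (body β a κ ι i q).top ρ
      ((σ.rounds (rnd ρ β a κ ι i q) t).setReg ι t)) ≤ W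
    rw [hT]
    apply max_le hTW
    apply Finset.sup_le
    intro m hm
    have := h2 m (Finset.mem_range.1 hm)
    rw [rounds_eq]
    rwa [Nat.zero_add] at this
  induction he with
  | skip s =>
    refine ⟨fun _ _ _ σ hσ _ => ⟨hσ.scratch hι 0, Nat.zero_le _⟩, fun i q h => ?_⟩
    cases h
  | push s i b =>
    refine ⟨fun hp ht hL σ hσ _ => ?_, fun i q h => by cases h⟩
    have hi : i < N := hp
    have hl := hσ.len i hi
    have hb : b.toNat ≤ 1 := by cases b <;> simp
    have h1 := hσ.push hi b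
    have hLi := hL i hi
    constructor
    · have e : (comp β a κ ι (.push i b)).run ρ σ =
          (σ.setArr (a + i) (s i).length b.toNat).setReg (β + i) ((s i).length + 1) := by
        simp only [comp, Prog.run, Expr.eval, Op.eval, State.setArr_reg, hl]
      rw [e]; exact h1
    · simp only [comp, Prog.top, Prog.run, Expr.top, Expr.eval, Op.eval, State.setArr_reg, hl]
      omega
  | pop s i =>
    refine ⟨fun hp ht hL σ hσ _ => ?_, fun i q h => by cases h⟩
    have hi : i < N := hp
    have hl := hσ.len i hi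
    have hLi := hL i hi
    constructor
    · have e : (comp β a κ ι (.pop i)).run ρ σ = σ.setReg (β + i) ((s i).length - 1) := by
        simp only [comp, Prog.run, Expr.eval, Op.eval, hl]
      rw [e]; exact hσ.pop hi
    · simp only [comp, Prog.top, Expr.top, Expr.eval, Op.eval, hl]
      omega
  | query_yes s i j h => exact absurd h (Set.notMem_empty _)
  | query_no s i j h =>
    refine ⟨fun hp ht hL σ hσ _ => ?_, fun i q h => by cases h⟩
    have hj : j < N := hp.2
    have hl := hσ.len j hj
    have h1 := hσ.push hj false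
    have hLi := hL j hj
    constructor
    · have e : (comp β a κ ι (.query i j)).run ρ σ =
          (σ.setArr (a + j) (s j).length false.toNat).setReg (β + j) ((s j).length + 1) := by
        simp only [comp, Prog.run, Expr.eval, Op.eval, State.setArr_reg, hl, Bool.toNat_false]
      rw [e]; exact h1
    · simp only [comp, Prog.top, Prog.run, Expr.top, Expr.eval, Op.eval, State.setArr_reg, hl]
      omega
  | @seq p q s s' s'' t t' h₁ h₂ ih₁ ih₂ =>
    refine ⟨fun hp ht hL σ hσ hT => ?_, fun i q h => by cases h⟩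
    obtain ⟨r1, m1⟩ := ih₁.1 hp.1 (by omega) (fun i hi => by have := hL i hi; omega) σ hσ hT
    obtain ⟨r2, m2⟩ := ih₂.1 hp.2 (by omega) (fun i hi => by
      have := hL i hi
      have := h₁.length_le i
      omega) _ r1 ((keep_clock ρ hκι hκ p hp.1 σ).trans hT)
    exact ⟨r2, max_le m1 m2⟩
  | @ite_nil p q r s s' t i h h₁ ih =>
    refine ⟨fun hp ht hL σ hσ hT => ?_, fun i q h => by cases h⟩
    have hi : i < N := hp.1
    obtain ⟨r1, m1⟩ := ih.1 hp.2.1 (by omega) (fun i hi => by have := hL i hi; omega) σ hσ hT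
    have h0 : σ.reg (β + i) = 0 := by rw [hσ.len i hi, h]; rfl
    simp only [comp, Prog.run, Prog.top, Expr.eval, Expr.top, h0, if_true]
    exact ⟨r1, max_le (Nat.zero_le _) m1⟩
  | @ite_false p q r s s' t i h h₁ ih =>
    refine ⟨fun hp ht hL σ hσ hT => ?_, fun i q h => by cases h⟩
    have hi : i < N := hp.1
    obtain ⟨r1, m1⟩ := ih.1 hp.2.2.1 (by omega) (fun i hi => by have := hL i hi; omega) σ hσ hT
    have hl := hσ.len i hi
    have hLi := hL i hi
    have hne : (s i).length ≠ 0 := by
      intro h0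
      rw [List.length_eq_zero_iff.1 h0] at h
      simp at h
    have hb := hσ.head hi h
    simp only [comp, Prog.run, Prog.top, Expr.eval, Expr.top, Op.eval, hl, hne, if_false, hb,
      Bool.toNat_false, if_true]
    refine ⟨r1, ?_⟩
    omega
  | @ite_true p q r s s' t i h h₁ ih =>
    refine ⟨fun hp ht hL σ hσ hT => ?_, fun i q h => by cases h⟩
    have hi : i < N := hp.1
    obtain ⟨r1, m1⟩ := ih.1 hp.2.2.2 (by omega) (fun i hi => by have := hL i hi; omega) σ hσ hT
    have hl := hσ.len i hi
    have hLi := hL i hi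
    have hne : (s i).length ≠ 0 := by
      intro h0
      rw [List.length_eq_zero_iff.1 h0] at h
      simp at h
    have hb := hσ.head hi h
    simp only [comp, Prog.run, Prog.top, Expr.eval, Expr.top, Op.eval, hl, hne, if_false, hb,
      Bool.toNat_true, one_ne_zero]
    refine ⟨r1, ?_⟩
    omega
  | @loop_stop p s i h =>
    have key : Vale.Agent.Lib.PolyTime.ToTM2.bounded N (.loop i p) → 1 ≤ T →
      (∀ i < N, (s i).length + 1 ≤ L) → ∀ n, 1 ≤ n → ∀ (k : ℕ) (σ : State), k + n ≤ T →
      Rep β a N s σ → σ.reg κ = T →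
        Rep β a N s (iterFrom (rnd ρ β a κ ι i p) n k σ) ∧ topsLe ρ β a κ ι i p W n k σ :=
      fun hp _ _ n _ k σ _ hσ _ => idle hp.1 hι h n k σ hσ
    exact ⟨hloop key, fun i' q' h' => by cases h'; exact key⟩
  | @loop_step p s s' s'' t t' i h h₁ h₂ ih₁ ih₂ =>
    have key : Vale.Agent.Lib.PolyTime.ToTM2.bounded N (.loop i p) → t + t' + 1 ≤ T →
      (∀ i < N, (s i).length + (t + t' + 1) ≤ L) → ∀ n, t + t' + 1 ≤ n →
      ∀ (k : ℕ) (σ : State), k + n ≤ T → Rep β a N s σ → σ.reg κ = T →
        Rep β a N s'' (iterFrom (rnd ρ β a κ ι i p) n k σ) ∧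
          topsLe ρ β a κ ι i p W n k σ := by
      intro hp ht hL n hn k σ hk hσ hT
      obtain ⟨n', rfl⟩ : ∃ n', n = n' + 1 := ⟨n - 1, by omega⟩
      have hi : i < N := hp.1
      have hσ1 : Rep β a N s (σ.setReg ι k) := hσ.scratch hι k
      have hT1 : (σ.setReg ι k).reg κ = T := by rw [State.setReg_reg, if_neg hκι]; exact hT
      obtain ⟨r1, m1⟩ := ih₁.1 hp.2 (by omega) (fun i hi => by have := hL i hi; omega) _ hσ1 hT1
      have hl : (σ.setReg ι k).reg (β + i) = (s i).length := hσ1.len i hi
      have hne : (s i).length ≠ 0 := fun h0 => h (List.length_eq_zero_iff.1 h0)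
      have hLi := hL i hi
      have e1 : rnd ρ β a κ ι i p k σ = (comp β a κ ι p).run ρ (σ.setReg ι k) := by
        simp only [rnd, body, Prog.run, Expr.eval, hl, hne, if_false]
      have e2 : (body β a κ ι i p).top ρ (σ.setReg ι k) ≤ W := by
        simp only [body, Prog.top, Expr.eval, Expr.top, hl, hne, if_false]
        omega
      obtain ⟨r2, m2⟩ := ih₂.2 i p rfl hp (by omega) (fun i hi => by
        have := hL i hi
        have := h₁.length_le i
        omega) n' (by omega) (k + 1) (rnd ρ β a κ ι i p k σ) (by omega)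
        (by rw [e1]; exact r1) (by rw [e1]; exact (keep_clock ρ hκι hκ p hp.2 _).trans hT1)
      exact ⟨r2, topsLe_succ e2 m2⟩
    exact ⟨hloop key, fun i' q' h' => by cases h'; exact key⟩

end Vale.Agent.P315.R
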